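import Vale.Agent.P183.R2.H154.Nil
import Mathlib.Data.Fintype.Card
set_option linter.all false

/-!
# Gaussian elimination over a finite family of local corners (P183)
-/

namespace Vale.Agent.P183.R2.H154

open Matrix

variable {N ι R : Type*} [Fintype N] [DecidableEq N] [Ring R]

/-- `r` lies in the corner `e R f`. -/
def InC (e f r : R) : Prop := e * r = r ∧ r * f = r

/-- A family of additive groups in the corners, closed under multiplication, full on the
diagonal. -/
structure Fam (e : ι → R) (T : ι → ι → AddSubgroup R) : Prop where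
  inC : ∀ i j r, r ∈ T i j → InC (e i) (e j) r
  diag : ∀ i r, InC (e i) (e i) r → r ∈ T i i
  mul : ∀ i j k r s, r ∈ T i j → s ∈ T j k → r * s ∈ T i k

/-- Entries of `g - 1` and `g⁻¹ - 1` in the family. -/
def GT (p : N → ι) (T : ι → ι → AddSubgroup R)
    (hm : ∀ i j k r s, r ∈ T i j → s ∈ T j k → r * s ∈ T i k) : Subgroup (Matrix N N R)ˣ where
  carrier := {g | (∀ a b, ((g : Matrix N N R) - 1) a b ∈ T (p a) (p b)) ∧
    ∀ a b, (((g⁻¹ : (Matrix N N R)ˣ) : Matrix N N R) - 1) a b ∈ T (p a) (p b)}
  one_mem' := by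
    constructor <;> intro a b <;> simp
  mul_mem' := by
    have key : ∀ g h : Matrix N N R, (∀ a b, (g - 1) a b ∈ T (p a) (p b)) →
        (∀ a b, (h - 1) a b ∈ T (p a) (p b)) → ∀ a b, (g * h - 1) a b ∈ T (p a) (p b) := by
      intro g h hg hh a b
      have e : g * h - 1 = (g - 1) * (h - 1) + (g - 1) + (h - 1) := by noncomm_ring
      rw [e, Matrix.add_apply, Matrix.add_apply, Matrix.mul_apply]
      refine add_mem (add_mem (sum_mem fun c _ => ?_) (hg a b)) (hh a b)
      exact hm _ _ _ _ _ (hg a c) (hh c b)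
    rintro g h ⟨hg, hg'⟩ ⟨hh, hh'⟩
    refine ⟨fun a b => ?_, fun a b => ?_⟩
    · rw [Units.val_mul]; exact key _ _ hg hh a b
    · rw [_root_.mul_inv_rev, Units.val_mul]; exact key _ _ hh' hg' a b
  inv_mem' := by
    rintro g ⟨hg, hg'⟩
    refine ⟨hg', ?_⟩
    rwa [inv_inv]

theorem mem_GT {p : N → ι} {T : ι → ι → AddSubgroup R} {hm} {g : (Matrix N N R)ˣ} :
    g ∈ GT p T hm ↔ (∀ a b, ((g : Matrix N N R) - 1) a b ∈ T (p a) (p b)) ∧
    ∀ a b, (((g⁻¹ : (Matrix N N R)ˣ) : Matrix N N R) - 1) a b ∈ T (p a) (p b) := Iff.rfl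

/-- A square-zero unit lies in `GT` as soon as its entries do. -/
theorem nu_mem_GT {p : N → ι} {T : ι → ι → AddSubgroup R} {hm} {X : Matrix N N R} (h : X * X = 0)
    (hX : ∀ a b, X a b ∈ T (p a) (p b)) : nu X h ∈ GT p T hm := by
  refine ⟨fun a b => ?_, fun a b => ?_⟩
  · rw [nu_val, add_sub_cancel_left]; exact hX a b
  · rw [nu_inv_val, sub_sub_cancel_left, Matrix.neg_apply]; exact neg_mem (hX a b)

theorem el_mem_GT {p : N → ι} {T : ι → ι → AddSubgroup R} {hm} {a b : N} (h : a ≠ b) {r : R}
    (hr : r ∈ T (p a) (p b)) : el a b h r ∈ GT p T hm := by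
  refine nu_mem_GT _ fun x y => ?_
  rw [single_apply]
  split_ifs with h1
  · obtain ⟨rfl, rfl⟩ := h1; exact hr
  · exact zero_mem _

/-- The diagonal unit with entry `1 + (w - e)` at `c`. -/
def dg (c : N) (e w v : R) (h : InC e e w ∧ InC e e v) (he : e * e = e) (h1 : w * v = e)
    (h2 : v * w = e) : (Matrix N N R)ˣ where
  val := 1 + single c c (w - e)
  inv := 1 + single c c (v - e)
  val_inv := by
    obtain ⟨⟨a1, a2⟩, b1, b2⟩ := h
    have : (1 + single c c (w - e) : Matrix N N R) * (1 + single c c (v - e))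
        = 1 + (single c c (w - e) + single c c (v - e) + single c c (w - e) * single c c (v - e)) := by
      noncomm_ring
    rw [this, single_mul_single_same, ← single_add, ← single_add]
    have e0 : w - e + (v - e) + (w - e) * (v - e) = 0 := by
      rw [mul_sub, sub_mul, sub_mul, h1, a2, b1, he]; abel
    rw [e0, single_zero, add_zero]
  inv_val := by
    obtain ⟨⟨a1, a2⟩, b1, b2⟩ := h
    have : (1 + single c c (v - e) : Matrix N N R) * (1 + single c c (w - e))
        = 1 + (single c c (v - e) + single c c (w - e) + single c c (v - e) * single c c (w - e)) := by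
      noncomm_ring
    rw [this, single_mul_single_same, ← single_add, ← single_add]
    have e0 : v - e + (w - e) + (v - e) * (w - e) = 0 := by
      rw [mul_sub, sub_mul, sub_mul, h2, b2, a1, he]; abel
    rw [e0, single_zero, add_zero]

theorem dg_mem_GT {p : N → ι} {e : ι → R} {T : ι → ι → AddSubgroup R} (hT : Fam e T)
    (he : ∀ i, e i * e i = e i) {c : N} {w v : R} (h h1 h2) :
    dg c (e (p c)) w v h (he _) h1 h2 ∈ GT p T hT.mul := by
  have hd : ∀ x : R, InC (e (p c)) (e (p c)) x → ∀ a b,
      (single c c (x - e (p c)) : Matrix N N R) a b ∈ T (p a) (p b) := by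
    intro x hx a b
    rw [single_apply]
    split_ifs with h1
    · obtain ⟨rfl, rfl⟩ := h1
      exact sub_mem (hT.diag _ _ hx) (hT.diag _ _ ⟨he _, he _⟩)
    · exact zero_mem _
  refine ⟨fun a b => ?_, fun a b => ?_⟩
  · show ((1 + single c c (w - e (p c)) : Matrix N N R) - 1) a b ∈ _
    rw [add_sub_cancel_left]; exact hd _ h.1 a b
  · show ((1 + single c c (v - e (p c)) : Matrix N N R) - 1) a b ∈ _
    rw [add_sub_cancel_left]; exact hd _ h.2 a b

/-- `e R e` is local, in elementary form. -/
def LocalCorner (e : R) : Prop :=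
  ∀ x y : R, InC e e x → InC e e y → x + y = e →
    (∃ z, InC e e z ∧ z * x = e ∧ x * z = e) ∨ (∃ z, InC e e z ∧ z * y = e ∧ y * z = e)

theorem InC.add {e f x y : R} (hx : InC e f x) (hy : InC e f y) : InC e f (x + y) :=
  ⟨by rw [mul_add, hx.1, hy.1], by rw [add_mul, hx.2, hy.2]⟩

theorem InC.mul {e f g x y : R} (hx : InC e f x) (hy : InC f g y) : InC e g (x * y) :=
  ⟨by rw [← mul_assoc, hx.1], by rw [mul_assoc, hy.2]⟩

theorem InC.sum {A : Type*} {e f : R} (s : Finset A) (x : A → R) (h : ∀ a ∈ s, InC e f (x a)) :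
    InC e f (∑ a ∈ s, x a) := by
  classical
  induction s using Finset.induction_on with
  | empty => simp [InC]
  | insert a s ha ih =>
    rw [Finset.sum_insert ha]
    exact (h a (Finset.mem_insert_self _ _)).add (ih fun b hb => h b (Finset.mem_insert_of_mem hb))

/-- In a local corner a finite sum equal to a unit has an invertible term. -/
theorem exists_unit_term {A : Type*} {e : R} (he : e * e = e) (he0 : e ≠ 0)
    (hl : LocalCorner e) (s : Finset A) (x : A → R) (h : ∀ a ∈ s, InC e e (x a))
    {u u' : R} (hu : InC e e u) (hu' : InC e e u') (h1 : u * u' = e) (h2 : u' * u = e)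
    (hsum : ∑ a ∈ s, x a = u) :
    ∃ a ∈ s, ∃ z, InC e e z ∧ z * x a = e ∧ x a * z = e := by
  classical
  induction s using Finset.induction_on generalizing u u' with
  | empty =>
    rw [Finset.sum_empty] at hsum
    rw [← hsum, zero_mul] at h1
    exact absurd h1.symm he0
  | insert a s ha ih =>
    rw [Finset.sum_insert ha] at hsum
    have hxa := h a (Finset.mem_insert_self _ _)
    have hS : InC e e (∑ b ∈ s, x b) :=
      InC.sum s x fun b hb => h b (Finset.mem_insert_of_mem hb)
    have key : u' * x a + u' * ∑ b ∈ s, x b = e := by rw [← mul_add, hsum, h2]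
    rcases hl _ _ (hu'.mul hxa) (hu'.mul hS) key with ⟨z, hz, z1, z2⟩ | ⟨z, hz, z1, z2⟩
    · refine ⟨a, Finset.mem_insert_self _ _, z * u', hz.mul hu', ?_, ?_⟩
      · rw [mul_assoc, z1]
      · have : x a * z = u := by
          have := congrArg (fun t => u * t) z2
          simp only [← mul_assoc, h1] at this
          rw [hxa.1] at this
          rw [this, hu.2]
        rw [← mul_assoc, this, h1]
    · obtain ⟨b, hb, w, hw⟩ := ih (fun b hb => h b (Finset.mem_insert_of_mem hb))
        hS (hz.mul hu') (by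
          have : (∑ b ∈ s, x b) * z = u := by
            have := congrArg (fun t => u * t) z2
            simp only [← mul_assoc, h1] at this
            rw [hS.1] at this
            rw [this, hu.2]
          rw [← mul_assoc, this, h1]) (by rw [mul_assoc, z1]) rfl
      exact ⟨b, Finset.mem_insert_of_mem hb, w, hw⟩

/-- Matrices supported on one column (off the diagonal) give units of `K`. -/
theorem col_mem {p : N → ι} {T : ι → ι → AddSubgroup R} {K : Subgroup (Matrix N N R)ˣ}
    (hel : ∀ (a b : N) (h : a ≠ b) (r : R), r ∈ T (p a) (p b) → el a b h r ∈ K) (c : N)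
    (x : N → R) (hx : ∀ a, a ≠ c → x a ∈ T (p a) (p c)) (s : Finset N) (hs : c ∉ s) :
    ∃ h : (∑ a ∈ s, single a c (x a) : Matrix N N R) * (∑ a ∈ s, single a c (x a)) = 0,
      nu _ h ∈ K := by
  have hz : ∀ (s t : Finset N), c ∉ t → (∑ a ∈ s, single a c (x a) : Matrix N N R) *
      (∑ a ∈ t, single a c (x a)) = 0 := by
    intro s t ht
    rw [Finset.sum_mul_sum]
    refine Finset.sum_eq_zero fun a _ => Finset.sum_eq_zero fun b hb => ?_
    have hne : c ≠ b := by rintro rfl; exact ht hb
    exact single_mul_single_of_ne _ _ _ _ hne _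
  induction s using Finset.induction_on with
  | empty =>
    refine ⟨hz _ _ hs, ?_⟩
    have : nu (∑ a ∈ (∅ : Finset N), single a c (x a) : Matrix N N R) (hz _ _ hs) = 1 := by
      ext i j; simp
    rw [this]; exact K.one_mem
  | insert a s ha ih =>
    obtain ⟨h1, h2⟩ := ih fun h => hs (Finset.mem_insert_of_mem h)
    have hac : a ≠ c := fun h => hs (h ▸ Finset.mem_insert_self _ _)
    refine ⟨hz _ _ hs, ?_⟩
    have e1 : (∑ b ∈ insert a s, single b c (x b) : Matrix N N R)
        = single a c (x a) + ∑ b ∈ s, single b c (x b) := Finset.sum_insert ha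
    have h3 : (single a c (x a) : Matrix N N R) * (∑ b ∈ s, single b c (x b)) = 0 := by
      rw [Finset.mul_sum]
      refine Finset.sum_eq_zero fun b hb => ?_
      have hne : c ≠ b := by rintro rfl; exact hs (Finset.mem_insert_of_mem hb)
      exact single_mul_single_of_ne _ _ _ _ hne _
    rw [nu_congr e1 _ (by rw [← e1]; exact hz _ _ hs),
      nu_mul (single_sq hac (x a)) h1 h3]
    exact K.mul_mem (hel a c hac _ (hx a hac)) h2

/-- Matrices supported on one row (off the diagonal) give units of `K`. -/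
theorem row_mem {p : N → ι} {T : ι → ι → AddSubgroup R} {K : Subgroup (Matrix N N R)ˣ}
    (hel : ∀ (a b : N) (h : a ≠ b) (r : R), r ∈ T (p a) (p b) → el a b h r ∈ K) (c : N)
    (x : N → R) (hx : ∀ a, a ≠ c → x a ∈ T (p c) (p a)) (s : Finset N) (hs : c ∉ s) :
    ∃ h : (∑ a ∈ s, single c a (x a) : Matrix N N R) * (∑ a ∈ s, single c a (x a)) = 0,
      nu _ h ∈ K := by
  have hz : ∀ (s t : Finset N), c ∉ s → (∑ a ∈ s, single c a (x a) : Matrix N N R) *
      (∑ a ∈ t, single c a (x a)) = 0 := by
    intro s t ht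
    rw [Finset.sum_mul_sum]
    refine Finset.sum_eq_zero fun a ha => Finset.sum_eq_zero fun b hb => ?_
    have hne : a ≠ c := by rintro rfl; exact ht ha
    exact single_mul_single_of_ne _ _ _ _ hne _
  induction s using Finset.induction_on with
  | empty =>
    refine ⟨hz _ _ hs, ?_⟩
    have : nu (∑ a ∈ (∅ : Finset N), single c a (x a) : Matrix N N R) (hz _ _ hs) = 1 := by
      ext i j; simp
    rw [this]; exact K.one_mem
  | insert a s ha ih =>
    obtain ⟨h1, h2⟩ := ih fun h => hs (Finset.mem_insert_of_mem h)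
    have hac : c ≠ a := fun h => hs (h ▸ Finset.mem_insert_self _ _)
    refine ⟨hz _ _ hs, ?_⟩
    have e1 : (∑ b ∈ insert a s, single c b (x b) : Matrix N N R)
        = single c a (x a) + ∑ b ∈ s, single c b (x b) := Finset.sum_insert ha
    have h3 : (single c a (x a) : Matrix N N R) * (∑ b ∈ s, single c b (x b)) = 0 := by
      rw [Finset.mul_sum]
      refine Finset.sum_eq_zero fun b hb => ?_
      exact single_mul_single_of_ne _ _ _ _ (Ne.symm hac) _
    rw [nu_congr e1 _ (by rw [← e1]; exact hz _ _ hs),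
      nu_mul (single_sq hac (x a)) h1 h3]
    exact K.mul_mem (hel c a hac _ (hx a (Ne.symm hac))) h2

end Vale.Agent.P183.R2.H154
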