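import Vale.Agent.P183.R2.H154.ElimRow
set_option linter.all false

/-!
# Row 4: elimination over local corners, in the notation of `H577.Base`
-/

namespace Vale.Agent.P183.H577

open Matrix Vale.Agent.P183.R2.H154

variable {R : Type} [Ring R] [Finite R] {n : ℕ}

/-- ROW 4 (elimination over local corners). -/
theorem elim_row {ι : Type} [Fintype ι] [DecidableEq ι] (e : Fin n → R)
    (he : ∀ i, e i * e i = e i) (ho : ∀ i j, i ≠ j → e i * e j = 0) (hs : ∑ i, e i = 1)
    (hl : ∀ i x, e i * x = x → x * e i = x →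
      (∃ y, e i * y = y ∧ y * e i = y ∧ x * y = e i ∧ y * x = e i) ∨
      (∃ y, e i * y = y ∧ y * e i = y ∧ (e i - x) * y = e i ∧ y * (e i - x) = e i))
    (p : ι → Fin n) (S : Subring R) (hS : ∀ i x, e i * x * e i ∈ S)
    (K : Subgroup (Matrix ι ι R)ˣ) (hK : bl e p ≤ K)
    (hT : ∀ a b, p a ≠ p b → ∀ x ∈ S, In K (Matrix.single a b (e (p a) * x * e (p b)))) :
    gl e S p ≤ K := by
  have hsingle : ∀ (a b : ι) (r : R), e (p a) * r = r → r * e (p b) = r → p a = p b →
      Blk e p (single a b r : Matrix ι ι R) := by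
    intro a b r h1 h2 hab
    refine ⟨fun x y => ?_, fun x y hxy => ?_⟩
    · rw [single_apply]
      split_ifs with h
      · obtain ⟨rfl, rfl⟩ := h
        exact ⟨Subring.mem_top _, h1, h2⟩
      · exact ⟨Subring.mem_top _, by simp, by simp⟩
    · rw [single_apply, if_neg]
      rintro ⟨rfl, rfl⟩
      exact hxy hab
  refine elim_aux e he ?_ p S hS K ?_ ?_
  · intro i x y hx hy hxy
    have hy' : y = e i - x := by rw [← hxy]; abel
    rcases hl i x hx.1 hx.2 with ⟨z, a1, a2, a3, a4⟩ | ⟨z, a1, a2, a3, a4⟩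
    · exact Or.inl ⟨z, ⟨a1, a2⟩, a4, a3⟩
    · exact Or.inr ⟨z, ⟨a1, a2⟩, by rw [hy']; exact a4, by rw [hy']; exact a3⟩
  · intro a b h r hr
    by_cases hab : p a = p b
    · apply hK
      show Blk e p ((1 + single a b r : Matrix ι ι R) - 1)
      rw [add_sub_cancel_left]
      exact hsingle a b r hr.2.1 hr.2.2 hab
    · obtain ⟨g, hg, hg'⟩ := hT a b hab r hr.1
      have : el a b h r = g := by
        apply Units.ext
        rw [hg', hr.2.1, hr.2.2]
        rfl
      rw [this]; exact hg
  · intro c w v h h1 h2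
    apply hK
    show Blk e p ((1 + single c c (w - e (p c)) : Matrix ι ι R) - 1)
    rw [add_sub_cancel_left]
    exact hsingle c c _ (by rw [mul_sub, h.1.1, he]) (by rw [sub_mul, h.1.2, he]) rfl

end Vale.Agent.P183.H577
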