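import Vale.Agent.P183.R2.H154.Elim
import Vale.Agent.P183.R2.H577.Base
set_option linter.all false

/-!
# The groups of intermediate rings are generated by elementary and diagonal units (P183)
-/

namespace Vale.Agent.P183.R2.H154

open Matrix Vale.Agent.P183.H577

section entries
variable {N R : Type*} [Fintype N] [DecidableEq N] [Ring R]

theorem colL (s : Finset N) (c : N) (x : N → R) (g : Matrix N N R) (i j : N) :
    ((1 + ∑ a ∈ s, single a c (x a)) * g) i j = g i j + (if i ∈ s then x i * g c j else 0) := by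
  rw [add_mul, one_mul, Matrix.add_apply, Finset.sum_mul, Matrix.sum_apply]
  congr 1
  have : ∀ a ∈ s, (single a c (x a) * g) i j = if i = a then x i * g c j else 0 := by
    intro a _
    split_ifs with h
    · subst h; exact single_mul_apply_same _ _ _ _ _
    · exact single_mul_apply_of_ne _ _ _ _ _ h _
  rw [Finset.sum_congr rfl this, Finset.sum_ite_eq]

theorem rowR (s : Finset N) (c : N) (y : N → R) (g : Matrix N N R) (i j : N) :
    (g * (1 + ∑ b ∈ s, single c b (y b))) i j = g i j + (if j ∈ s then g i c * y j else 0) := by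
  rw [mul_add, mul_one, Matrix.add_apply, Finset.mul_sum, Matrix.sum_apply]
  congr 1
  have : ∀ b ∈ s, (g * single c b (y b)) i j = if j = b then g i c * y j else 0 := by
    intro b _
    split_ifs with h
    · subst h; exact mul_single_apply_same _ _ _ _ _
    · exact mul_single_apply_of_ne _ _ _ _ _ h _
  rw [Finset.sum_congr rfl this, Finset.sum_ite_eq]

theorem oneL (c d : N) (t : R) (g : Matrix N N R) (i j : N) :
    ((1 + single c d t) * g) i j = g i j + (if i = c then t * g d j else 0) := by
  have := colL {c} d (fun _ => t) g i j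
  simpa using this

end entries

variable {R : Type} [Ring R] [Finite R] {n : ℕ} {ι : Type} [Fintype ι] [DecidableEq ι]

/-- The Peirce components of a subring. -/
def TS (e : Fin n → R) (S : Subring R) (i j : Fin n) : AddSubgroup R where
  carrier := {x | x ∈ S ∧ e i * x = x ∧ x * e j = x}
  zero_mem' := ⟨S.zero_mem, by simp, by simp⟩
  add_mem' := fun {a b} ha hb => ⟨S.add_mem ha.1 hb.1, by rw [mul_add, ha.2.1, hb.2.1],
    by rw [add_mul, ha.2.2, hb.2.2]⟩
  neg_mem' := fun {a} ha => ⟨S.neg_mem ha.1, by rw [mul_neg, ha.2.1], by rw [neg_mul, ha.2.2]⟩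

theorem mem_TS {e : Fin n → R} {S : Subring R} {i j : Fin n} {x : R} :
    x ∈ TS e S i j ↔ x ∈ S ∧ e i * x = x ∧ x * e j = x := Iff.rfl

theorem TS_mul {e : Fin n → R} {S : Subring R} (i j k : Fin n) (r s : R) (hr : r ∈ TS e S i j)
    (hs : s ∈ TS e S j k) : r * s ∈ TS e S i k :=
  ⟨S.mul_mem hr.1 hs.1, by rw [← mul_assoc, hr.2.1], by rw [mul_assoc, hs.2.2]⟩

theorem mem_gl {e : Fin n → R} {S : Subring R} {p : ι → Fin n} {g : (Matrix ι ι R)ˣ} :
    g ∈ gl e S p ↔ ∀ a b, (g.1 - 1) a b ∈ TS e S (p a) (p b) := Iff.rfl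

theorem single_mem {e : Fin n → R} {S : Subring R} {p : ι → Fin n} {a b : ι} {r : R}
    (hr : r ∈ TS e S (p a) (p b)) (x y : ι) :
    (single a b r : Matrix ι ι R) x y ∈ TS e S (p x) (p y) := by
  rw [single_apply]
  split_ifs with h1
  · obtain ⟨rfl, rfl⟩ := h1; exact hr
  · exact zero_mem _

theorem el_mem_gl {e : Fin n → R} {S : Subring R} {p : ι → Fin n} {a b : ι} (h : a ≠ b) {r : R}
    (hr : r ∈ TS e S (p a) (p b)) : el a b h r ∈ gl e S p := by
  intro x y
  show ((1 + single a b r : Matrix ι ι R) - 1) x y ∈ TS e S (p x) (p y)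
  rw [add_sub_cancel_left]
  exact single_mem hr x y

/-- Left multiplication by an element of `K` makes a diagonal entry equal to `1`. -/
theorem pivot (e : Fin n → R) (he : ∀ i, e i * e i = e i)
    (hl : ∀ i, LocalCorner (e i)) (p : ι → Fin n) (S : Subring R)
    (hdiag : ∀ i x, InC (e i) (e i) x → x ∈ TS e S i i) (K : Subgroup (Matrix ι ι R)ˣ)
    (hel : ∀ (a b : ι) (h : a ≠ b) (r : R), r ∈ TS e S (p a) (p b) → el a b h r ∈ K)
    (hdg : ∀ (c : ι) (w v : R) (h : InC (e (p c)) (e (p c)) w ∧ InC (e (p c)) (e (p c)) v)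
      (h1 : w * v = e (p c)) (h2 : v * w = e (p c)), dg c (e (p c)) w v h (he _) h1 h2 ∈ K)
    (g : (Matrix ι ι R)ˣ) (hg : g ∈ gl e S p) (c : ι) (hE0 : e (p c) ≠ 0) :
    ∃ k1 ∈ K, (k1 * g).1 c c = 1 ∧ (∀ i j, i ≠ c → (k1 * g).1 i j = g.1 i j) ∧
      ∀ j, c ≠ j → (∀ i, i ≠ j → g.1 i j = 0 ∧ g.1 j i = 0) → (k1 * g).1 c j = 0 := by
  have hgi : g⁻¹ ∈ gl e S p := (gl e S p).inv_mem hg
  rw [mem_gl] at hg hgi
  set E := e (p c) with hEdef
  have hEE : E * E = E := he _
  set G : Matrix ι ι R := (g⁻¹).1 with hG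
  have hsum : ∑ a, E * (G c a * g.1 a c) * E = E := by
    rw [← Finset.sum_mul, ← Finset.mul_sum, ← Matrix.mul_apply, hG, Units.inv_mul,
      Matrix.one_apply_eq, mul_one, hEE]
  obtain ⟨a, _, z, hz, z1, z2⟩ := exists_unit_term hEE hE0 (hl (p c)) Finset.univ
    (fun a => E * (G c a * g.1 a c) * E)
    (fun a _ => ⟨by rw [← mul_assoc, ← mul_assoc, hEE], by rw [mul_assoc, hEE]⟩)
    (u := E) (u' := E) ⟨hEE, hEE⟩ ⟨hEE, hEE⟩ hEE hEE hsum
  have hm : (g.1 - 1) c c ∈ TS e S (p c) (p c) := hg c c
  have hgcc : g.1 c c = 1 + (g.1 - 1) c c := by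
    rw [Matrix.sub_apply, Matrix.one_apply_eq]; abel
  by_cases hac : a = c
  · subst hac
    have hm' : (G - 1) a a ∈ TS e S (p a) (p a) := hgi a a
    have hGcc : G a a = 1 + (G - 1) a a := by
      rw [Matrix.sub_apply, Matrix.one_apply_eq]; abel
    set m := (g.1 - 1) a a with hmdef
    set m' := (G - 1) a a with hmdef'
    have hx : E * (G a a * g.1 a a) * E = (E + m') * (E + m) := by
      rw [hgcc, hGcc]
      have e1 : E * m' = m' := hm'.2.1
      have e2 : m * E = m := hm.2.2
      have e3 : m' * E = m' := hm'.2.2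
      have e4 : E * m = m := hm.2.1
      have : E * ((1 + m') * (1 + m)) * E = E * E + E * (m * E) + E * m' * E + E * m' * (m * E) := by
        noncomm_ring
      rw [this, hEE, e2, e4, e1, e3]
      have : (E + m') * (E + m) = E * E + E * m + m' * E + m' * m := by noncomm_ring
      rw [this, hEE, e4, e3]
    have z1' : z * ((E + m') * (E + m)) = E := by rw [← hx]; exact z1
    have hyy : InC E E (E + m') := InC.add ⟨hEE, hEE⟩ hm'.2
    have hxx : InC E E (E + m) := InC.add ⟨hEE, hEE⟩ hm.2
    set xx := E + m with hxxdef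
    set w := z * (E + m') with hwdef
    have hw : InC E E w := hz.mul hyy
    have w1 : w * xx = E := by rw [hwdef, mul_assoc]; exact z1'
    have hf : InC E E (xx * w) := hxx.mul hw
    have hff : xx * w * (xx * w) = xx * w := by
      have : xx * w * (xx * w) = xx * (w * xx) * w := by noncomm_ring
      rw [this, w1, hxx.2]
    have w2 : xx * w = E := by
      rcases hl (p a) (xx * w) (E - xx * w) hf
        ⟨by rw [mul_sub, hf.1, ← hEdef, hEE], by rw [sub_mul, hf.2, ← hEdef, hEE]⟩
        (by rw [← hEdef]; abel) with ⟨q, hq, q1, q2⟩ | ⟨q, hq, q1, q2⟩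
      · calc xx * w = E * (xx * w) := hf.1.symm
          _ = q * (xx * w) * (xx * w) := by rw [q1]
          _ = q * (xx * w) := by rw [mul_assoc, hff]
          _ = E := q1
      · exfalso
        have h0 : xx * w = 0 := by
          calc xx * w = E * (xx * w) := hf.1.symm
            _ = q * (E - xx * w) * (xx * w) := by rw [q1]
            _ = q * (E * (xx * w) - xx * w * (xx * w)) := by rw [mul_assoc, sub_mul]
            _ = 0 := by rw [hf.1, hff, sub_self, mul_zero]
        apply hE0
        calc E = w * xx * (w * xx) := by rw [w1, hEE]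
          _ = w * (xx * w) * xx := by noncomm_ring
          _ = 0 := by rw [h0, mul_zero, zero_mul]
    have hkg : ∀ i j, (dg a E w xx ⟨hw, hxx⟩ (he _) w1 w2 * g).1 i j
        = g.1 i j + (if i = a then (w - E) * g.1 a j else 0) := by
      intro i j
      rw [Units.val_mul]
      exact oneL a a (w - E) g.1 i j
    refine ⟨dg a E w xx ⟨hw, hxx⟩ (he _) w1 w2, hdg a w xx ⟨hw, hxx⟩ w1 w2, ?_, ?_, ?_⟩
    · rw [hkg, if_pos rfl, hgcc]
      have e1 : w * E = w := hw.2
      have e2 : E * m = m := hm.2.1
      have e3 : w + w * m = E := by rw [← w1, hxxdef, mul_add, e1]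
      have : 1 + m + (w - E) * (1 + m) = 1 + m + (w + w * m) - E - E * m := by noncomm_ring
      rw [this, e3, e2]; abel
    · intro i j hi
      rw [hkg, if_neg hi, add_zero]
    · intro j hj h
      rw [hkg, if_pos rfl, (h a hj).1, mul_zero, add_zero]
  · have hac' : a ≠ c := hac
    have ha1 : g.1 a c ∈ TS e S (p a) (p c) := by
      have := hg a c
      rwa [Matrix.sub_apply, Matrix.one_apply_ne hac', sub_zero] at this
    have ha2 : G c a ∈ TS e S (p c) (p a) := by
      have := hgi c a
      rwa [Matrix.sub_apply, Matrix.one_apply_ne (Ne.symm hac'), sub_zero] at this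
    set m := (g.1 - 1) c c with hmdef
    have hu : z * G c a * g.1 a c = E := by
      have : z * (E * (G c a * g.1 a c) * E) = z * G c a * g.1 a c := by
        have e1 : E * G c a = G c a := ha2.2.1
        have e2 : g.1 a c * E = g.1 a c := ha1.2.2
        calc z * (E * (G c a * g.1 a c) * E) = z * (E * G c a) * (g.1 a c * E) := by noncomm_ring
          _ = _ := by rw [e1, e2]
      rw [← this]; exact z1
    have hga0 : g.1 a c ≠ 0 := by
      intro h0
      apply hE0
      rw [← hu, h0, mul_zero]
    have hzT : z ∈ TS e S (p c) (p c) := hdiag _ _ hz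
    have ht : -m * (z * G c a) ∈ TS e S (p c) (p a) :=
      TS_mul _ _ _ _ _ (neg_mem hm) (TS_mul _ _ _ _ _ hzT ha2)
    have hkg : ∀ i j, (el c a (Ne.symm hac') (-m * (z * G c a)) * g).1 i j
        = g.1 i j + (if i = c then -m * (z * G c a) * g.1 a j else 0) := by
      intro i j
      rw [Units.val_mul]
      exact oneL c a _ g.1 i j
    refine ⟨el c a (Ne.symm hac') (-m * (z * G c a)), hel _ _ _ _ ht, ?_, ?_, ?_⟩
    · rw [hkg, if_pos rfl, mul_assoc, hu, hgcc]
      have e1 : m * E = m := hm.2.2
      rw [neg_mul, e1]; abel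
    · intro i j hi
      rw [hkg, if_neg hi, add_zero]
    · intro j hj h
      have haj : a ≠ j := by
        rintro rfl
        exact hga0 (h c hj).2
      rw [hkg, if_pos rfl, (h c hj).1, (h a haj).1, mul_zero, add_zero]

/-- The elimination. -/
theorem elim_aux (e : Fin n → R) (he : ∀ i, e i * e i = e i)
    (hl : ∀ i, LocalCorner (e i)) (p : ι → Fin n) (S : Subring R)
    (hS : ∀ i x, e i * x * e i ∈ S) (K : Subgroup (Matrix ι ι R)ˣ)
    (hel : ∀ (a b : ι) (h : a ≠ b) (r : R), r ∈ TS e S (p a) (p b) → el a b h r ∈ K)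
    (hdg : ∀ (c : ι) (w v : R) (h : InC (e (p c)) (e (p c)) w ∧ InC (e (p c)) (e (p c)) v)
      (h1 : w * v = e (p c)) (h2 : v * w = e (p c)), dg c (e (p c)) w v h (he _) h1 h2 ∈ K) :
    gl e S p ≤ K := by
  classical
  have hdiag : ∀ i x, InC (e i) (e i) x → x ∈ TS e S i i := by
    intro i x hx
    refine ⟨?_, hx.1, hx.2⟩
    have := hS i x
    rwa [hx.1, hx.2] at this
  -- the group `K' = K ⊓ gl`
  have hel' : ∀ (a b : ι) (h : a ≠ b) (r : R), r ∈ TS e S (p a) (p b) →
      el a b h r ∈ K ⊓ gl e S p := fun a b h r hr => ⟨hel a b h r hr, el_mem_gl h hr⟩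
  have hdg' : ∀ (c : ι) (w v : R) (h : InC (e (p c)) (e (p c)) w ∧ InC (e (p c)) (e (p c)) v)
      (h1 : w * v = e (p c)) (h2 : v * w = e (p c)),
      dg c (e (p c)) w v h (he _) h1 h2 ∈ K ⊓ gl e S p := by
    intro c w v h h1 h2
    refine ⟨hdg c w v h h1 h2, ?_⟩
    intro x y
    show ((1 + single c c (w - e (p c)) : Matrix ι ι R) - 1) x y ∈ TS e S (p x) (p y)
    rw [add_sub_cancel_left]
    exact single_mem (sub_mem (hdiag _ _ h.1) (hdiag _ _ ⟨he _, he _⟩)) x y
  have key : ∀ (k : ℕ) (S0 : Finset ι), (Finset.univ \ S0).card = k → ∀ g ∈ gl e S p,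
      (∀ s ∈ S0, ∀ b, (g.1 - 1) s b = 0 ∧ (g.1 - 1) b s = 0) → g ∈ K := by
    intro k
    induction k with
    | zero =>
      intro S0 h0 g hg h
      have : S0 = Finset.univ := by
        rw [Finset.card_eq_zero, Finset.sdiff_eq_empty_iff_subset] at h0
        exact Finset.univ_subset_iff.1 h0
      have hg1 : g = 1 := by
        ext a b
        have := (h a (this ▸ Finset.mem_univ a) b).1
        rw [Matrix.sub_apply, sub_eq_zero] at this
        rw [this, Units.val_one]
      rw [hg1]; exact K.one_mem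
    | succ k ih =>
      intro S0 h0 g hg h
      obtain ⟨c, hc⟩ : (Finset.univ \ S0).Nonempty := by
        rw [← Finset.card_pos, h0]; omega
      have hcS : c ∉ S0 := (Finset.mem_sdiff.1 hc).2
      have hcard : (Finset.univ \ insert c S0).card = k := by
        have : Finset.univ \ insert c S0 = (Finset.univ \ S0).erase c := by
          ext a; simp [Finset.mem_sdiff]
        rw [this, Finset.card_erase_of_mem hc, h0]; rfl
      have hsc : ∀ s ∈ S0, s ≠ c := by rintro s hs rfl; exact hcS hs
      -- values of `g` on `S0`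
      have hrow : ∀ s ∈ S0, ∀ b, b ≠ s → g.1 s b = 0 := by
        intro s hs b hsb
        have := (h s hs b).1
        rwa [Matrix.sub_apply, Matrix.one_apply_ne (Ne.symm hsb), sub_zero] at this
      have hcol : ∀ s ∈ S0, ∀ b, b ≠ s → g.1 b s = 0 := by
        intro s hs b hsb
        have := (h s hs b).2
        rwa [Matrix.sub_apply, Matrix.one_apply_ne hsb, sub_zero] at this
      by_cases hE0 : e (p c) = 0
      · refine ih (insert c S0) hcard g hg ?_
        intro s hs b
        rcases Finset.mem_insert.1 hs with rfl | hs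
        · have h1 := (mem_gl.1 hg s b).2.1
          have h2 := (mem_gl.1 hg b s).2.2
          rw [hE0, zero_mul] at h1
          rw [hE0, mul_zero] at h2
          exact ⟨h1.symm, h2.symm⟩
        · exact h s hs b
      obtain ⟨k1, hk1, hcc, hi, hj⟩ := pivot e he hl p S hdiag (K ⊓ gl e S p) hel' hdg' g hg c hE0
      set g1 := k1 * g with hg1
      have hg1m : g1 ∈ gl e S p := (gl e S p).mul_mem hk1.2 hg
      have hj' : ∀ s ∈ S0, g1.1 c s = 0 := by
        intro s hs
        refine hj s (Ne.symm (hsc s hs)) fun i his => ⟨hcol s hs i his, hrow s hs i his⟩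
      have hoff : ∀ q ∈ gl e S p, ∀ a b, a ≠ b → q.1 a b ∈ TS e S (p a) (p b) := by
        intro q hq a b hab
        have := mem_gl.1 hq a b
        rwa [Matrix.sub_apply, Matrix.one_apply_ne hab, sub_zero] at this
      obtain ⟨h2, hk2⟩ := col_mem (T := TS e S) hel' c (fun a => -g1.1 a c)
        (fun a ha => neg_mem (hoff g1 hg1m a c ha)) (Finset.univ.erase c)
        (Finset.notMem_erase c _)
      set k2 := nu _ h2 with hk2def
      set g2 := k2 * g1 with hg2
      have hg2m : g2 ∈ gl e S p := (gl e S p).mul_mem hk2.2 hg1m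
      have f2 : ∀ i j, g2.1 i j = g1.1 i j + (if i ∈ Finset.univ.erase c then
          -g1.1 i c * g1.1 c j else 0) := by
        intro i j
        rw [hg2, Units.val_mul, hk2def, nu_val]
        exact colL _ _ _ _ _ _
      obtain ⟨h3, hk3⟩ := row_mem (T := TS e S) hel' c (fun b => -g2.1 c b)
        (fun b hb => neg_mem (hoff g2 hg2m c b (Ne.symm hb))) (Finset.univ.erase c)
        (Finset.notMem_erase c _)
      set k3 := nu _ h3 with hk3def
      set g3 := g2 * k3 with hg3
      have hg3m : g3 ∈ gl e S p := (gl e S p).mul_mem hg2m hk3.2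
      have f3 : ∀ i j, g3.1 i j = g2.1 i j + (if j ∈ Finset.univ.erase c then
          g2.1 i c * -g2.1 c j else 0) := by
        intro i j
        rw [hg3, Units.val_mul, hk3def, nu_val]
        exact rowR _ _ _ _ _ _
      have g2cc : ∀ j, g2.1 c j = g1.1 c j := by
        intro j
        rw [f2, if_neg (Finset.notMem_erase c _), add_zero]
      have g2ic : ∀ i, i ≠ c → g2.1 i c = 0 := by
        intro i hic
        rw [f2, if_pos (Finset.mem_erase.2 ⟨hic, Finset.mem_univ _⟩), hcc, mul_one, add_neg_cancel]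
      have g3c : ∀ j, g3.1 c j = (1 : Matrix ι ι R) c j := by
        intro j
        by_cases hjc : j = c
        · subst hjc
          rw [f3, if_neg (Finset.notMem_erase _ _), add_zero, g2cc, hcc, Matrix.one_apply_eq]
        · rw [f3, if_pos (Finset.mem_erase.2 ⟨hjc, Finset.mem_univ _⟩), g2cc c, hcc, one_mul,
            add_neg_cancel, Matrix.one_apply_ne (Ne.symm hjc)]
      have g3i : ∀ i j, i ≠ c → g3.1 i j = g2.1 i j := by
        intro i j hic
        rw [f3, g2ic i hic, zero_mul, ite_self, add_zero]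
      have hg3K : g3 ∈ K := by
        refine ih (insert c S0) hcard g3 hg3m ?_
        intro s hs b
        rcases Finset.mem_insert.1 hs with rfl | hs
        · refine ⟨by rw [Matrix.sub_apply, g3c, sub_self], ?_⟩
          by_cases hbs : b = s
          · subst hbs; rw [Matrix.sub_apply, g3c, sub_self]
          · rw [Matrix.sub_apply, g3i b s hbs, g2ic b hbs, Matrix.one_apply_ne hbs, sub_self]
        · have hs' := hsc s hs
          constructor
          · have : g3.1 s b = g.1 s b := by
              rw [g3i s b hs', f2, if_pos (Finset.mem_erase.2 ⟨hs', Finset.mem_univ _⟩),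
                hi s c hs', hrow s hs c (Ne.symm hs'), neg_zero, zero_mul, add_zero, hi s b hs']
            rw [Matrix.sub_apply, this, ← Matrix.sub_apply]
            exact (h s hs b).1
          · by_cases hbc : b = c
            · subst hbc
              have : g3.1 b s = 0 := by
                rw [g3c, Matrix.one_apply_ne (Ne.symm hs')]
              rw [Matrix.sub_apply, this, Matrix.one_apply_ne (Ne.symm hs'), sub_self]
            · have : g3.1 b s = g.1 b s := by
                rw [g3i b s hbc, f2, if_pos (Finset.mem_erase.2 ⟨hbc, Finset.mem_univ _⟩),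
                  hj' s hs, mul_zero, add_zero, hi b s hbc]
              rw [Matrix.sub_apply, this, ← Matrix.sub_apply]
              exact (h s hs b).2
      have : g = k1⁻¹ * (k2⁻¹ * g3 * k3⁻¹) := by
        rw [hg3, hg2, hg1]; group
      rw [this]
      exact K.mul_mem (K.inv_mem hk1.1) (K.mul_mem (K.mul_mem (K.inv_mem hk2.1) hg3K)
        (K.inv_mem hk3.1))
  intro g hg
  exact key _ ∅ rfl g hg (by simp)

end Vale.Agent.P183.R2.H154
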