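import Mathlib.Data.Matrix.Basis
import Mathlib.Tactic.NoncommRing
import Mathlib.LinearAlgebra.Matrix.NonsingularInverse
import Mathlib.Algebra.Group.Subgroup.Basic
set_option linter.all false

/-!
# Units `1 + X` with `X * X = 0`, commutators, and the extraction of one entry of a square-zero
matrix (P183, lattices of subrings containing the corners)
-/

namespace Vale.Agent.P183.R2.H154

/-- The unit `1 + X` for `X * X = 0`. -/
def nu {A : Type*} [Ring A] (X : A) (h : X * X = 0) : Aˣ where
  val := 1 + X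
  inv := 1 - X
  val_inv := by
    have : (1 + X) * (1 - X) = 1 - X * X := by noncomm_ring
    rw [this, h, sub_zero]
  inv_val := by
    have : (1 - X) * (1 + X) = 1 - X * X := by noncomm_ring
    rw [this, h, sub_zero]

section ring
variable {A : Type*} [Ring A]

@[simp] theorem nu_val (X : A) (h : X * X = 0) : ((nu X h : Aˣ) : A) = 1 + X := rfl

theorem nu_inv_val (X : A) (h : X * X = 0) : (((nu X h)⁻¹ : Aˣ) : A) = 1 - X := rfl

theorem sq_zero_mul {X Y : A} (h : Y * X = 0) : (X * Y) * (X * Y) = 0 := by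
  rw [mul_assoc, ← mul_assoc Y X Y, h, zero_mul, mul_zero]

/-- If `Y X = 0` the commutator of `1 + X` and `1 + Y` is `1 + X Y`. -/
theorem nu_comm {X Y : A} (hX : X * X = 0) (hY : Y * Y = 0) (h : Y * X = 0) :
    nu X hX * nu Y hY * (nu X hX)⁻¹ * (nu Y hY)⁻¹ = nu (X * Y) (sq_zero_mul h) := by
  ext
  rw [Units.val_mul, Units.val_mul, Units.val_mul, nu_inv_val, nu_inv_val, nu_val, nu_val, nu_val]
  have e : (1 + X) * (1 + Y) * (1 - X) * (1 - Y)
      = 1 + X * Y - X * X + X * X * Y - Y * X - X * (Y * X) - Y * Y + Y * X * Y - X * Y * Y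
        + X * (Y * X) * Y := by noncomm_ring
  rw [e, hX, hY, h]
  have e2 : X * Y * Y = 0 := by rw [mul_assoc, hY, mul_zero]
  rw [e2]
  simp

theorem nu_mem_comm {K : Subgroup Aˣ} {X Y : A} (hX : X * X = 0) (hY : Y * Y = 0)
    (h : Y * X = 0) (kX : nu X hX ∈ K) (kY : nu Y hY ∈ K) : nu (X * Y) (sq_zero_mul h) ∈ K := by
  rw [← nu_comm hX hY h]
  exact K.mul_mem (K.mul_mem (K.mul_mem kX kY) (K.inv_mem kX)) (K.inv_mem kY)

/-- Conjugation. -/
theorem nu_conj (g : Aˣ) {X : A} (hX : X * X = 0) :
    ∃ h : ((g⁻¹ : Aˣ) * X * (g : A)) * ((g⁻¹ : Aˣ) * X * (g : A)) = 0,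
      nu _ h = g⁻¹ * nu X hX * g := by
  have h : ((g⁻¹ : Aˣ) * X * (g : A)) * ((g⁻¹ : Aˣ) * X * (g : A)) = 0 := by
    have e : ((g⁻¹ : Aˣ) * X * (g : A)) * ((g⁻¹ : Aˣ) * X * (g : A))
        = (g⁻¹ : Aˣ) * (X * ((g : A) * (g⁻¹ : Aˣ)) * X) * (g : A) := by noncomm_ring
    rw [e, Units.mul_inv, mul_one, hX, mul_zero, zero_mul]
  refine ⟨h, ?_⟩
  ext
  rw [nu_val, Units.val_mul, Units.val_mul, nu_val, mul_add, mul_one, add_mul, Units.inv_mul]

theorem nu_congr {X Y : A} (h : X = Y) (hX : X * X = 0) (hY : Y * Y = 0) : nu X hX = nu Y hY := by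
  subst h; rfl

theorem nu_mul {X Y : A} (hX : X * X = 0) (hY : Y * Y = 0) (hXY : X * Y = 0)
    (h : (X + Y) * (X + Y) = 0) : nu (X + Y) h = nu X hX * nu Y hY := by
  ext
  rw [Units.val_mul, nu_val, nu_val, nu_val]
  have : (1 + X) * (1 + Y) = 1 + (X + Y) + X * Y := by noncomm_ring
  rw [this, hXY, add_zero]

end ring

section matrix
open Matrix
variable {N R : Type*} [Fintype N] [DecidableEq N] [Ring R]

theorem single_sq {a b : N} (h : a ≠ b) (r : R) :
    (single a b r : Matrix N N R) * single a b r = 0 := by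
  rw [single_mul_single_of_ne _ _ _ _ (Ne.symm h)]

/-- The elementary unit. -/
def el (a b : N) (h : a ≠ b) (r : R) : (Matrix N N R)ˣ := nu (single a b r) (single_sq h r)

theorem el_mul {a b : N} (h : a ≠ b) (r s : R) : el a b h r * el a b h s = el a b h (r + s) := by
  unfold el
  rw [← nu_mul (single_sq h r) (single_sq h s) (by
    rw [single_mul_single_of_ne _ _ _ _ (Ne.symm h)]) (by
    rw [← single_add]; exact single_sq h _)]
  exact nu_congr (by rw [single_add]) _ _

/-- The commutator of two elementary units. -/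
theorem el_comm_mem {K : Subgroup (Matrix N N R)ˣ} {a b c : N} (hab : a ≠ b) (hbc : b ≠ c)
    (hac : a ≠ c) {r s : R} (h1 : el a b hab r ∈ K) (h2 : el b c hbc s ∈ K) :
    el a c hac (r * s) ∈ K := by
  have h := nu_mem_comm (single_sq hab r) (single_sq hbc s)
    (by rw [single_mul_single_of_ne _ _ _ _ (Ne.symm hac)]) h1 h2
  have e : (single a b r : Matrix N N R) * single b c s = single a c (r * s) :=
    single_mul_single_same _ _ _ _ _
  rw [nu_congr e _ (single_sq hac _)] at h
  exact h

/-- Extraction of one entry of a square-zero matrix `M` with two equal columns. -/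
theorem extract {K : Subgroup (Matrix N N R)ˣ} {M : Matrix N N R} (hM : M * M = 0)
    (kM : nu M hM ∈ K) {b b' c d d' : N} {e f : R} (he : e * e = e)
    (hbc : b ≠ c) (hb'c : b' ≠ c) (hbb' : b ≠ b') (hdd' : d ≠ d') (hd'b : d' ≠ b)
    (hd'b' : d' ≠ b') (hcd' : c ≠ d') (hcol : ∀ x, M x b * e = M x b' * e)
    (k1 : el b c hbc e ∈ K) (k2 : el b' c hb'c e ∈ K) (k3 : el d d' hdd' f ∈ K)
    (k4 : el c b hbc.symm e ∈ K) : el c d' hcd' (e * M c d * f) ∈ K := by
  have hY : (single b c e - single b' c e : Matrix N N R) * (single b c e - single b' c e) = 0 := by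
    rw [sub_mul, mul_sub, mul_sub, single_mul_single_of_ne _ _ _ _ (Ne.symm hbc),
      single_mul_single_of_ne _ _ _ _ (Ne.symm hb'c),
      single_mul_single_of_ne _ _ _ _ (Ne.symm hbc),
      single_mul_single_of_ne _ _ _ _ (Ne.symm hb'c)]
    simp
  have hYe : (single b c e - single b' c e : Matrix N N R) = single b c e + single b' c (-e) := by
    rw [sub_eq_add_neg]
    congr 1
    ext i j
    simp only [Matrix.neg_apply, single_apply]
    split_ifs <;> simp
  have kY : nu (single b c e - single b' c e : Matrix N N R) hY ∈ K := by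
    have h1 : el b' c hb'c (-e) ∈ K := by
      have : el b' c hb'c (-e) = (el b' c hb'c e)⁻¹ := by
        rw [eq_inv_iff_mul_eq_one, el_mul, neg_add_cancel]
        ext i j
        simp [el]
      rw [this]
      exact K.inv_mem k2
    have h2 : nu (single b c e - single b' c e : Matrix N N R) hY = el b c hbc e * el b' c hb'c (-e) := by
      rw [nu_congr hYe hY (by rw [← hYe]; exact hY)]
      exact nu_mul _ _ (by rw [single_mul_single_of_ne _ _ _ _ (Ne.symm hb'c)]) _
    rw [h2]
    exact K.mul_mem k1 h1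
  have hMY : M * (single b c e - single b' c e) = 0 := by
    ext i j
    rw [mul_sub, Matrix.sub_apply, Matrix.zero_apply]
    by_cases hj : c = j
    · subst hj
      rw [mul_single_apply_same, mul_single_apply_same, hcol, sub_self]
    · rw [mul_single_apply_of_ne _ _ _ _ _ (Ne.symm hj),
        mul_single_apply_of_ne _ _ _ _ _ (Ne.symm hj), sub_zero]
  have kZ := nu_mem_comm hY hM hMY kY kM
  set Z : Matrix N N R := (single b c e - single b' c e) * M with hZ
  have hZZ : Z * Z = 0 := sq_zero_mul hMY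
  have Zrow : ∀ i j, Z i j = if i = b then e * M c j else if i = b' then - (e * M c j) else 0 := by
    intro i j
    rw [hZ, sub_mul, Matrix.sub_apply]
    by_cases h1 : i = b
    · subst h1
      rw [if_pos rfl, single_mul_apply_same, single_mul_apply_of_ne _ _ _ _ _ hbb', sub_zero]
    · rw [if_neg h1, single_mul_apply_of_ne _ _ _ _ _ h1]
      by_cases h2 : i = b'
      · subst h2
        rw [if_pos rfl, single_mul_apply_same, zero_sub]
      · rw [if_neg h2, single_mul_apply_of_ne _ _ _ _ _ h2, sub_zero]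
  have hWZ : (single d d' f : Matrix N N R) * Z = 0 := by
    ext i j
    by_cases h1 : i = d
    · subst h1
      rw [single_mul_apply_same, Zrow, if_neg hd'b, if_neg hd'b', mul_zero, Matrix.zero_apply]
    · rw [single_mul_apply_of_ne _ _ _ _ _ h1, Matrix.zero_apply]
  have kZW := nu_mem_comm hZZ (single_sq hdd' f) hWZ kZ k3
  set Q : Matrix N N R := Z * single d d' f with hQ
  have hQQ : Q * Q = 0 := sq_zero_mul hWZ
  have hQV : Q * (single c b e : Matrix N N R) = 0 := by
    rw [hQ, mul_assoc, single_mul_single_of_ne _ _ _ _ (Ne.symm hcd'), mul_zero]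
  have kV := nu_mem_comm (single_sq hbc.symm e) hQQ hQV k4 kZW
  have hfin : (single c b e : Matrix N N R) * Q = single c d' (e * M c d * f) := by
    ext i j
    by_cases h1 : i = c
    · subst h1
      rw [single_mul_apply_same]
      by_cases h2 : j = d'
      · subst h2
        rw [hQ, mul_single_apply_same, Zrow, if_pos rfl, single_apply_same, ← mul_assoc,
          ← mul_assoc, he]
      · rw [hQ, mul_single_apply_of_ne _ _ _ _ _ h2, mul_zero,
          single_apply_of_ne _ _ _ _ _ (by rintro ⟨-, h⟩; exact h2 h.symm)]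
    · rw [single_mul_apply_of_ne _ _ _ _ _ h1,
        single_apply_of_ne _ _ _ _ _ (by rintro ⟨h, -⟩; exact h1 h.symm)]
  rw [nu_congr hfin _ (single_sq hcd' _)] at kV
  exact kV

end matrix

end Vale.Agent.P183.R2.H154
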